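import Vale.Agent.P181.H676.Tail

/-! # P181: growth of the number of partitions with at most `r` parts -/

namespace Vale.Agent.P181.H106

open Finset
open Vale.Agent.P181.H676

/-- subtract `j` columns of height `d + 1` -/
def subc {n : ℕ} (d : Fin (n + 1)) (j : ℕ) (l : Fin (n + 1) → ℕ) : Fin (n + 1) → ℕ :=
  fun i => l i - (if i ≤ d then j else 0)

theorem gap_le {n : ℕ} {d : Fin (n + 1)} {j : ℕ} {l : Fin (n + 1) → ℕ} (hl : Antitone l)
    (h : j ≤ nx l d - nx l (d + 1)) {i : Fin (n + 1)} (hi : i ≤ d) : j ≤ l i := by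
  have h1 : nx l d = l d := by unfold nx; rw [dif_pos d.2]
  have h2 := hl hi
  omega

theorem subc_add {n : ℕ} {d : Fin (n + 1)} {j : ℕ} {l : Fin (n + 1) → ℕ} (hl : Antitone l)
    (h : j ≤ nx l d - nx l (d + 1)) (i : Fin (n + 1)) :
    subc d j l i + (if i ≤ d then j else 0) = l i := by
  unfold subc
  by_cases hi : i ≤ d
  · have := gap_le hl h hi
    rw [if_pos hi]
    omega
  · rw [if_neg hi]
    omega

theorem subc_anti {n : ℕ} {d : Fin (n + 1)} {j : ℕ} {l : Fin (n + 1) → ℕ} (hl : Antitone l)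
    (h : j ≤ nx l d - nx l (d + 1)) : Antitone (subc d j l) := by
  intro i i' hii
  have h1 := hl hii
  unfold subc
  by_cases hi' : i' ≤ d
  · rw [if_pos hi', if_pos (hii.trans hi')]
    omega
  · rw [if_neg hi']
    by_cases hi : i ≤ d
    · rw [if_pos hi]
      have h2 : l d ≤ l i := hl hi
      have h3 : nx l d = l d := by unfold nx; rw [dif_pos d.2]
      have hlt : (d : ℕ) + 1 < n + 1 := by
        have := i'.2
        rw [Fin.le_def] at hi'
        omega
      have h4 : nx l ((d : ℕ) + 1) = l ⟨(d : ℕ) + 1, hlt⟩ := by unfold nx; rw [dif_pos hlt]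
      have h5 : l i' ≤ l ⟨(d : ℕ) + 1, hlt⟩ := hl (by
        rw [Fin.le_def] at hi' ⊢
        simp only
        omega)
      omega
    · rw [if_neg hi]
      omega

theorem sum_ite_le {n : ℕ} (d : Fin (n + 1)) (j : ℕ) :
    ∑ i : Fin (n + 1), (if i ≤ d then j else 0) = ((d : ℕ) + 1) * j := by
  rw [← Finset.sum_filter, Finset.sum_const, smul_eq_mul]
  congr 1
  have : (Finset.univ.filter fun i : Fin (n + 1) => i ≤ d) = Finset.Iic d := by
    ext i; simp
  rw [this, Fin.card_Iic]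

theorem subc_sum {n : ℕ} {d : Fin (n + 1)} {j : ℕ} {l : Fin (n + 1) → ℕ} (hl : Antitone l)
    (h : j ≤ nx l d - nx l (d + 1)) : ∑ i, subc d j l i + ((d : ℕ) + 1) * j = ∑ i, l i := by
  rw [← sum_ite_le d j, ← Finset.sum_add_distrib]
  exact Finset.sum_congr rfl fun i _ => subc_add hl h i

open Classical in
theorem count_le {n M : ℕ} (d : Fin (n + 1)) (j : ℕ) :
    ((Lam (n + 1) M).filter fun l => j ≤ nx l d - nx l (d + 1)).card ≤
      (Lam (n + 1) (M - j * ((d : ℕ) + 1))).card := by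
  refine Finset.card_le_card_of_injOn (subc d j) ?_ ?_
  · intro l hl
    have hl := Finset.mem_filter.1 (Finset.mem_coe.1 hl)
    have h1 := mem_Lam.1 hl.1
    refine Finset.mem_coe.2 (mem_Lam.2 ⟨subc_anti h1.1 hl.2, ?_⟩)
    have h2 := subc_sum h1.1 hl.2
    rw [h1.2] at h2
    rw [mul_comm j]
    omega
  · intro l hl l' hl' h
    have hl := Finset.mem_filter.1 (Finset.mem_coe.1 hl)
    have hl' := Finset.mem_filter.1 (Finset.mem_coe.1 hl')
    funext i
    rw [← subc_add (mem_Lam.1 hl.1).1 hl.2 i, ← subc_add (mem_Lam.1 hl'.1).1 hl'.2 i, h]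

open Classical in
theorem sum_le {n M : ℕ} (d : Fin (n + 1)) :
    ∑ l ∈ Lam (n + 1) M, (nx l d - nx l (d + 1)) ≤
      ∑ j ∈ Icc 1 (M / ((d : ℕ) + 1)), (Lam (n + 1) (M - j * ((d : ℕ) + 1))).card := by
  have hx : ∀ l ∈ Lam (n + 1) M, nx l d - nx l (d + 1) =
      ∑ j ∈ Finset.Icc 1 (M / ((d : ℕ) + 1)), (if j ≤ nx l d - nx l (d + 1) then 1 else 0) := by
    intro l hl
    have h1 := mem_Lam.1 hl
    set x := nx l d - nx l (d + 1) with hxd
    have h2 := subc_sum (d := d) h1.1 (le_refl x)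
    rw [h1.2] at h2
    have h3 : x ≤ M / ((d : ℕ) + 1) := by
      rw [Nat.le_div_iff_mul_le (by omega), mul_comm]
      omega
    rw [← Finset.sum_filter, Finset.sum_const, smul_eq_mul, mul_one]
    have h4 : (Finset.Icc 1 (M / ((d : ℕ) + 1))).filter (fun j => j ≤ x) = Finset.Icc 1 x := by
      ext j
      rw [Finset.mem_filter, Finset.mem_Icc, Finset.mem_Icc]
      omega
    rw [h4]
    simp
  rw [Finset.sum_congr rfl hx, Finset.sum_comm]
  refine Finset.sum_le_sum fun j _ => ?_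
  rw [← Finset.card_filter]
  exact count_le d j

/-- the partial sums -/
noncomputable def S (n M : ℕ) : ℕ := ∑ i ∈ range M, (Lam (n + 1) i).card

theorem block {n : ℕ} (M k J : ℕ) (h : J * k ≤ M) :
    ∑ j ∈ Icc 1 J, k * (Lam (n + 1) (M - j * k)).card ≤
      ∑ i ∈ Ico (M - J * k) M, (Lam (n + 1) i).card := by
  induction J with
  | zero => simp
  | succ J ih =>
    have hJ : J * k ≤ M := le_trans (Nat.mul_le_mul_right _ (Nat.le_succ _)) h
    have h1 := ih hJ
    rw [Finset.sum_Icc_succ_top (by omega)]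
    have e1 : (J + 1) * k = J * k + k := by ring
    have h2 : ∑ i ∈ Ico (M - (J + 1) * k) (M - J * k), (Lam (n + 1) i).card +
        ∑ i ∈ Ico (M - J * k) M, (Lam (n + 1) i).card =
        ∑ i ∈ Ico (M - (J + 1) * k) M, (Lam (n + 1) i).card :=
      Finset.sum_Ico_consecutive _ (by omega) (by omega)
    have h3 : k * (Lam (n + 1) (M - (J + 1) * k)).card ≤
        ∑ i ∈ Ico (M - (J + 1) * k) (M - J * k), (Lam (n + 1) i).card := by
      have h4 := Finset.card_nsmul_le_sum (Ico (M - (J + 1) * k) (M - J * k))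
        (fun i => (Lam (n + 1) i).card) (Lam (n + 1) (M - (J + 1) * k)).card
        (fun i hi => mono (Finset.mem_Ico.1 hi).1)
      rw [Nat.card_Ico, smul_eq_mul] at h4
      have h5 : M - J * k - (M - (J + 1) * k) = k := by omega
      rwa [h5] at h4
    omega

theorem mul_le_S {n M : ℕ} : M * (Lam (n + 1) M).card ≤ (n + 1) * S n M := by
  have h1 : ∑ l ∈ Lam (n + 1) M, ∑ d ∈ range (n + 1), (d + 1) * (nx l d - nx l (d + 1))
      = M * (Lam (n + 1) M).card := by
    rw [Finset.sum_congr rfl fun l hl => (sum_gap (mem_Lam.1 hl).1).trans (mem_Lam.1 hl).2,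
      Finset.sum_const, smul_eq_mul, mul_comm]
  rw [Finset.sum_comm] at h1
  rw [← h1]
  calc ∑ d ∈ range (n + 1), ∑ l ∈ Lam (n + 1) M, (d + 1) * (nx l d - nx l (d + 1))
      ≤ ∑ d ∈ range (n + 1), S n M := by
        refine Finset.sum_le_sum fun d hd => ?_
        rw [Finset.mem_range] at hd
        rw [← Finset.mul_sum]
        have h2 := sum_le (n := n) (M := M) ⟨d, hd⟩
        simp only at h2
        have h3 := block (n := n) M (d + 1) (M / (d + 1)) (Nat.div_mul_le_self _ _)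
        rw [← Finset.mul_sum] at h3
        refine (Nat.mul_le_mul_left _ h2).trans (h3.trans ?_)
        unfold S
        rw [Finset.range_eq_Ico]
        exact Finset.sum_le_sum_of_subset (Finset.Ico_subset_Ico_left (Nat.zero_le _))
    _ = (n + 1) * S n M := by rw [Finset.sum_const, smul_eq_mul, Finset.card_range]

theorem S_step {n M : ℕ} (hM : 0 < M) :
    (S n (M + 1) : ℝ) ≤ Real.exp (((n : ℝ) + 1) / M) * (S n M : ℝ) := by
  have h1 : (M : ℝ) * (Lam (n + 1) M).card ≤ ((n : ℝ) + 1) * S n M := by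
    exact_mod_cast mul_le_S (n := n) (M := M)
  have hM' : (0 : ℝ) < M := by exact_mod_cast hM
  have h2 : (S n (M + 1) : ℝ) = S n M + (Lam (n + 1) M).card := by
    unfold S
    rw [Finset.sum_range_succ]
    push_cast
    ring
  have h3 : ((Lam (n + 1) M).card : ℝ) ≤ ((n : ℝ) + 1) / M * S n M := by
    rw [div_mul_eq_mul_div, le_div_iff₀ hM']
    linarith
  have h4 := Real.add_one_le_exp (((n : ℝ) + 1) / M)
  have h5 : (0 : ℝ) ≤ S n M := Nat.cast_nonneg _
  rw [h2]
  nlinarith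

theorem S_iter {n M : ℕ} (hM : 0 < M) (K : ℕ) :
    (S n (M + K) : ℝ) ≤ Real.exp (((n : ℝ) + 1) * K / M) * (S n M : ℝ) := by
  induction K with
  | zero => simp
  | succ K ih =>
    have h1 := S_step (n := n) (M := M + K) (by omega)
    have hM' : (0 : ℝ) < M := by exact_mod_cast hM
    have h2 : Real.exp (((n : ℝ) + 1) / ((M + K : ℕ) : ℝ)) ≤ Real.exp (((n : ℝ) + 1) / M) := by
      refine Real.exp_le_exp.2 (div_le_div_of_nonneg_left (by positivity) hM' ?_)
      push_cast
      linarith [(Nat.cast_nonneg K : (0 : ℝ) ≤ K)]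
    have h5 : (0 : ℝ) ≤ S n (M + K) := Nat.cast_nonneg _
    calc (S n (M + (K + 1)) : ℝ) = S n (M + K + 1) := by rw [Nat.add_assoc]
      _ ≤ Real.exp (((n : ℝ) + 1) / ((M + K : ℕ) : ℝ)) * S n (M + K) := h1
      _ ≤ Real.exp (((n : ℝ) + 1) / M) * S n (M + K) := mul_le_mul_of_nonneg_right h2 h5
      _ ≤ Real.exp (((n : ℝ) + 1) / M) * (Real.exp (((n : ℝ) + 1) * K / M) * (S n M : ℝ)) :=
          mul_le_mul_of_nonneg_left ih (Real.exp_pos _).le
      _ = Real.exp (((n : ℝ) + 1) * (K + 1 : ℕ) / M) * (S n M : ℝ) := by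
          rw [← mul_assoc, ← Real.exp_add]
          congr 2
          push_cast
          field_simp
          ring

theorem S_le {n M b : ℕ} (hb : 1 ≤ b) (hab : n ≤ 4 * b) (h : M ≤ (n + 1) * b) :
    S n M ≤ 8 * b * (Lam (n + 1) M).card := by
  have h1 : S n M = ∑ i ∈ range (M - 4 * b), (Lam (n + 1) i).card +
      ∑ i ∈ Ico (M - 4 * b) M, (Lam (n + 1) i).card := by
    unfold S
    rw [Finset.range_eq_Ico, Finset.range_eq_Ico]
    exact (Finset.sum_Ico_consecutive _ (Nat.zero_le _) (Nat.sub_le _ _)).symm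
  have h2 : ∑ i ∈ Ico (M - 4 * b) M, (Lam (n + 1) i).card ≤ 4 * b * (Lam (n + 1) M).card := by
    calc ∑ i ∈ Ico (M - 4 * b) M, (Lam (n + 1) i).card
        ≤ ∑ i ∈ Ico (M - 4 * b) M, (Lam (n + 1) M).card :=
          Finset.sum_le_sum fun i hi => mono (Finset.mem_Ico.1 hi).2.le
      _ = (M - (M - 4 * b)) * (Lam (n + 1) M).card := by
          rw [Finset.sum_const, smul_eq_mul, Nat.card_Ico]
      _ ≤ 4 * b * (Lam (n + 1) M).card := Nat.mul_le_mul_right _ (by omega)
  have h3 : 2 * ∑ i ∈ range (M - 4 * b), (Lam (n + 1) i).card ≤ S n M := by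
    rw [Finset.mul_sum]
    calc ∑ i ∈ range (M - 4 * b), 2 * (Lam (n + 1) i).card
        ≤ ∑ i ∈ range (M - 4 * b), (Lam (n + 1) (i + 4 * b)).card := by
          refine Finset.sum_le_sum fun i hi => half hb hab ?_
          rw [Finset.mem_range] at hi
          omega
      _ = ∑ i ∈ Ico (4 * b) (M - 4 * b + 4 * b), (Lam (n + 1) i).card := by
          rw [Finset.range_eq_Ico, Finset.sum_Ico_add' (fun i => (Lam (n + 1) i).card) 0
            (M - 4 * b) (4 * b), Nat.zero_add]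
      _ ≤ S n M := by
          unfold S
          rcases Nat.lt_or_ge M (4 * b) with hlt | hge
          · have : M - 4 * b + 4 * b = 4 * b := by omega
            rw [this, Finset.Ico_self]
            simp
          · have : M - 4 * b + 4 * b = M := by omega
            rw [this, Finset.range_eq_Ico]
            exact Finset.sum_le_sum_of_subset (Finset.Ico_subset_Ico_left (Nat.zero_le _))
  have e : 8 * b * (Lam (n + 1) M).card = 2 * (4 * b * (Lam (n + 1) M).card) := by ring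
  omega

/-- **Growth.** -/
theorem growth {n N T : ℕ} (h : (n + 1) ^ 2 ≤ N - T) (hT : 2 * T ≤ N) :
    ((Lam (n + 1) N).card : ℝ) ≤
      16 * Real.exp (2 * ((n : ℝ) + 1) * T / N) * ((Lam (n + 1) (N - T)).card : ℝ) := by
  obtain ⟨M, hM⟩ : ∃ M, M = N - T := ⟨_, rfl⟩
  rw [← hM] at h ⊢
  have hNM : N = M + T := by omega
  have hr1 : 1 ≤ (n + 1) ^ 2 := Nat.one_le_pow _ _ (by omega)
  have hM0 : 0 < M := by omega
  have hrr : n + 1 ≤ (n + 1) ^ 2 := by nlinarith
  obtain ⟨b, hb⟩ : ∃ b, b = M / (n + 1) + 1 := ⟨_, rfl⟩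
  have hb1 : M ≤ (n + 1) * b := by
    have := Nat.lt_div_mul_add (a := M) (b := n + 1) (by omega)
    rw [hb]
    nlinarith
  have hb2 : (n + 1) * b ≤ M + (n + 1) := by
    have := Nat.div_mul_le_self M (n + 1)
    rw [hb]
    nlinarith
  have hb3 : n ≤ 4 * b := by
    have : n + 1 ≤ M / (n + 1) := by
      rw [Nat.le_div_iff_mul_le (by omega)]
      nlinarith
    omega
  have h1 : (N : ℝ) * (Lam (n + 1) N).card ≤ ((n : ℝ) + 1) * S n N := by
    exact_mod_cast mul_le_S (n := n) (M := N)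
  have h2 := S_iter (n := n) hM0 T
  rw [← hNM] at h2
  have h3 : (S n M : ℝ) ≤ 8 * b * (Lam (n + 1) M).card := by
    exact_mod_cast S_le (n := n) (M := M) (b := b) (by rw [hb]; exact Nat.le_add_left 1 _) hb3 hb1
  have hMr : (0 : ℝ) < M := by exact_mod_cast hM0
  have hNr : (0 : ℝ) < N := by
    have : 0 < N := by omega
    exact_mod_cast this
  have hb2r : ((n : ℝ) + 1) * b ≤ 2 * N := by
    have : (n + 1) * b ≤ 2 * N := by omega
    exact_mod_cast this
  have hexp : Real.exp (((n : ℝ) + 1) * T / M) ≤ Real.exp (2 * ((n : ℝ) + 1) * T / N) := by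
    refine Real.exp_le_exp.2 ?_
    rw [div_le_div_iff₀ hMr hNr]
    have h4 : (N : ℝ) ≤ 2 * M := by
      have : N ≤ 2 * M := by omega
      exact_mod_cast this
    have h5 : (0 : ℝ) ≤ ((n : ℝ) + 1) * T := by positivity
    nlinarith
  have hp : (0 : ℝ) ≤ (Lam (n + 1) M).card := Nat.cast_nonneg _
  have hS : (0 : ℝ) ≤ S n M := Nat.cast_nonneg _
  have hex : 0 ≤ Real.exp (2 * ((n : ℝ) + 1) * T / N) := (Real.exp_pos _).le
  have hn1 : (0 : ℝ) ≤ (n : ℝ) + 1 := by positivity
  have h8 : 0 ≤ 8 * Real.exp (2 * ((n : ℝ) + 1) * T / N) * ((Lam (n + 1) M).card : ℝ) :=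
    mul_nonneg (mul_nonneg (by norm_num) hex) hp
  refine le_of_mul_le_mul_left ?_ hNr
  calc (N : ℝ) * (Lam (n + 1) N).card ≤ ((n : ℝ) + 1) * S n N := h1
    _ ≤ ((n : ℝ) + 1) * (Real.exp (((n : ℝ) + 1) * T / M) * S n M) :=
        mul_le_mul_of_nonneg_left h2 hn1
    _ ≤ ((n : ℝ) + 1) * (Real.exp (2 * ((n : ℝ) + 1) * T / N) *
          (8 * b * (Lam (n + 1) M).card)) := by
        refine mul_le_mul_of_nonneg_left ?_ hn1
        exact mul_le_mul hexp h3 hS hex
    _ = (((n : ℝ) + 1) * b) * (8 * Real.exp (2 * ((n : ℝ) + 1) * T / N) *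
          (Lam (n + 1) M).card) := by ring
    _ ≤ (2 * N) * (8 * Real.exp (2 * ((n : ℝ) + 1) * T / N) * (Lam (n + 1) M).card) :=
        mul_le_mul_of_nonneg_right hb2r h8
    _ = N * (16 * Real.exp (2 * ((n : ℝ) + 1) * T / N) * (Lam (n + 1) M).card) := by ring

end Vale.Agent.P181.H106
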