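import Vale.Agent.P181.H179.Tail2
import Vale.Agent.P181.H106.Growth

/-!
P181: almost all partitions have many long columns, without hypothesis.
-/

set_option autoImplicit false

namespace Vale.Agent.P181.H106

open Finset Vale.Agent.P181.H676

theorem growth16 : Vale.Agent.P181.H179.TL.Growth 16 := fun _ _ _ hT h => growth h hT

/-- The tail bound of `H179/Tail2.lean` with the constant `16`. -/
theorem tail2 {r m b z : ℕ} (hr : 1 ≤ r) (hm : 1 ≤ m)
    (hmr : m ≤ r) (hb : 2 * (r + m) ≤ b) (hz : 42 * (z + m) * (r + m) ≤ m * b) :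
    ((((Lam (r + m) ((r + m) * b)).filter
      (fun l => l (Fin.natAdd r ⟨0, hm⟩) < z)).card : ℕ) : ℝ) * 2 ^ m ≤
      16 * ((Lam (r + m) ((r + m) * b)).card : ℝ) :=
  Vale.Agent.P181.H179.TL.tail2 growth16 (by norm_num) hr hm hmr hb hz

end Vale.Agent.P181.H106
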